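import Vale.Agent.Lib.P043.Line

/-!
# The periodic tiling conjecture for direct sums of two tiles, each of prime cardinality or
contained in a line

Let `F₁, F₂ ⊆ ℤ^d` be finite sets, each of which has prime cardinality or is contained in a line
(all differences of its elements are integer multiples of one vector), whose sum `F₁ + F₂` is
direct (`|F₁ + F₂| = |F₁| |F₂|`).  If `F₁ + F₂` tiles `ℤ^d` by translations, then it admits a
periodic tiling.  The dimension `d` is arbitrary, and so is the cardinality of a summand that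
is contained in a line.
-/

namespace Vale.Agent.Results.P043.PrimeOrLineSumZd

open Vale.Agent.Lib.P043
open Pointwise

theorem result (d : ℕ) (F₁ F₂ : Finset (Fin d → ℤ))
    (h₁ : F₁.card.Prime ∨ ∃ u : Fin d → ℤ, ∀ f ∈ F₁, ∀ f' ∈ F₁, ∃ n : ℤ, f - f' = n • u)
    (h₂ : F₂.card.Prime ∨ ∃ u : Fin d → ℤ, ∀ f ∈ F₂, ∀ f' ∈ F₂, ∃ n : ℤ, f - f' = n • u)
    (hdirect : (F₁ + F₂).card = F₁.card * F₂.card)
    (A : Set (Fin d → ℤ)) (hA : IsTiling A (F₁ + F₂)) :
    ∃ A' : Set (Fin d → ℤ), IsTiling A' (F₁ + F₂) ∧ IsPeriodic A' := by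
  have : AddGroup.FG (Fin d → ℤ) := Module.Finite.iff_addGroup_fg.1 inferInstance
  exact main_mixed h₁ h₂ hdirect hA

end Vale.Agent.Results.P043.PrimeOrLineSumZd
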