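import Vale.Agent.Lib.P043.Basis

/-!
# The periodic tiling conjecture for direct sums of several tiles of prime cardinality
whose spans are spanned by parts of a common basis

Let `F 0, ..., F (k-1) ⊆ ℤ^d` be finite sets of prime cardinality whose sum `F = ∑ i, F i` is
direct (`|F| = ∏ i, |F i|`).  Let `v 0, ..., v (d-1) ∈ ℤ^d` have nonzero determinant (a basis of
`ℚ^d`) and let `S i` be sets of indices such that the rational span of the differences
`F i - F i` is the rational span of the `v b`, `b ∈ S i` (both inclusions are stated through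
positive integer multiples lying in the generated subgroups).  If `F` tiles `ℤ^d` by
translations, then it admits a periodic tiling.  The dimension `d` and the number `k` of summands
are arbitrary.
-/

namespace Vale.Agent.Results.P043.PrimeSumsBasis

open Vale.Agent.Lib.P043
open Pointwise

theorem result (d k : ℕ) (F : Fin k → Finset (Fin d → ℤ))
    (hprime : ∀ i, (F i).card.Prime)
    (hdirect : (∑ i, F i).card = ∏ i, (F i).card)
    (v : Fin d → Fin d → ℤ) (hv : (Matrix.of v).det ≠ 0) (S : Fin k → Set (Fin d))
    (hsub : ∀ i, ∀ f ∈ F i, ∀ f' ∈ F i, ∃ m : ℕ, 0 < m ∧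
      m • (f - f') ∈ AddSubgroup.closure (v '' S i))
    (hfull : ∀ i, ∀ b ∈ S i, ∃ m : ℕ, 0 < m ∧
      m • v b ∈ AddSubgroup.closure {x : Fin d → ℤ | ∃ f ∈ F i, ∃ f' ∈ F i, x = f - f'})
    (A : Set (Fin d → ℤ)) (hA : IsTiling A (∑ i, F i)) :
    ∃ A' : Set (Fin d → ℤ), IsTiling A' (∑ i, F i) ∧ IsPeriodic A' :=
  main_prime_basis d F hprime hdirect v hv S hsub hfull hA

end Vale.Agent.Results.P043.PrimeSumsBasis
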